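import Vale.Agent.Lib.P067.Defs

/-!
# P067: basic lemmas (Hamming weight, weights of faces, delta squared, filling lemmas)
-/

namespace Vale.Agent.Lib.P067

open Finset

section wt

variable {α β : Type} [Fintype α] [Fintype β]

/-- Hamming weight (size of the support) of an `F_2`-valued function. -/
def wt (f : α → ZMod 2) : ℕ := (univ.filter (fun a => f a ≠ 0)).card

lemma wt_zero : wt (0 : α → ZMod 2) = 0 := by simp [wt]

lemma wt_add_le (f g : α → ZMod 2) : wt (f + g) ≤ wt f + wt g := by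
  classical
  unfold wt
  refine le_trans (card_le_card ?_) (card_union_le _ _)
  intro a ha
  simp only [mem_filter, mem_univ, true_and, Pi.add_apply, mem_union] at ha ⊢
  by_contra hcon
  push Not at hcon
  exact ha (by rw [hcon.1, hcon.2, add_zero])

lemma wt_neg (f : α → ZMod 2) : wt (-f) = wt f := by
  unfold wt
  congr 1
  ext a
  simp

lemma wt_sub_le (f g : α → ZMod 2) : wt (f - g) ≤ wt f + wt g := by
  rw [sub_eq_add_neg]
  exact (wt_add_le f (-g)).trans (by rw [wt_neg])

lemma wt_smul_le (c : ZMod 2) (f : α → ZMod 2) : wt (c • f) ≤ wt f := by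
  unfold wt
  refine card_le_card ?_
  intro a ha
  simp only [mem_filter, mem_univ, true_and, Pi.smul_apply, smul_eq_mul] at ha ⊢
  exact right_ne_zero_of_mul ha

lemma wt_sum_le {ι : Type} (S : Finset ι) (f : ι → α → ZMod 2) :
    wt (∑ j ∈ S, f j) ≤ ∑ j ∈ S, wt (f j) := by
  classical
  induction S using Finset.induction_on with
  | empty => simp [wt_zero]
  | insert a S ha ih =>
    rw [sum_insert ha, sum_insert ha]
    exact (wt_add_le _ _).trans (Nat.add_le_add_left ih _)

lemma wt_single_le [DecidableEq α] (a : α) : wt (Pi.single a (1 : ZMod 2)) ≤ 1 := by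
  unfold wt
  have : (univ.filter (fun b => (Pi.single a (1 : ZMod 2) : α → ZMod 2) b ≠ 0)) ⊆ {a} := by
    intro b hb
    simp only [mem_filter, mem_univ, true_and] at hb
    simp only [mem_singleton]
    by_contra hne
    exact hb (Pi.single_eq_of_ne hne _)
  exact (card_le_card this).trans (by simp)

lemma wt_le_card (f : α → ZMod 2) : wt f ≤ Fintype.card α := by
  unfold wt
  exact card_le_univ _

lemma eq_zero_of_wt_eq_zero {f : α → ZMod 2} (h : wt f = 0) : f = 0 := by
  unfold wt at h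
  rw [card_eq_zero, filter_eq_empty_iff] at h
  funext a
  simpa using h (mem_univ a)

/-- decomposition of a function in the standard basis -/
lemma eq_sum_single [DecidableEq α] (u : α → ZMod 2) :
    u = ∑ a, u a • (Pi.single a (1 : ZMod 2) : α → ZMod 2) := by
  funext b
  simp [Finset.sum_apply, Pi.single_apply]

/-- A linear map whose values on the standard basis have weight at most `K` multiplies
weights by at most `K`. -/
lemma wt_map_le [DecidableEq α] (F : (α → ZMod 2) →ₗ[ZMod 2] (β → ZMod 2)) (K : ℝ)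
    (hK : ∀ a, (wt (F (Pi.single a 1)) : ℝ) ≤ K) (u : α → ZMod 2) :
    (wt (F u) : ℝ) ≤ wt u * K := by
  have h1 : F u = ∑ a ∈ univ.filter (fun a => u a ≠ 0), F (Pi.single a 1) := by
    conv_lhs => rw [eq_sum_single u]
    rw [map_sum, sum_filter]
    refine sum_congr rfl fun a _ => ?_
    rw [map_smul]
    by_cases h : u a = 0
    · simp [h]
    · have : u a = 1 := by
        have := (Fin.exists_fin_two (p := fun x => x = u a)).1 ⟨_, rfl⟩
        rcases this with h0 | h1
        · exact absurd h0.symm h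
        · exact h1.symm
      simp [this]
  rw [h1]
  calc (wt (∑ a ∈ univ.filter (fun a => u a ≠ 0), F (Pi.single a 1)) : ℝ)
      ≤ ((∑ a ∈ univ.filter (fun a => u a ≠ 0), wt (F (Pi.single a 1)) : ℕ) : ℝ) := by
        exact_mod_cast wt_sum_le _ _
    _ = ∑ a ∈ univ.filter (fun a => u a ≠ 0), (wt (F (Pi.single a 1)) : ℝ) := by
        push_cast; rfl
    _ ≤ ∑ a ∈ univ.filter (fun a => u a ≠ 0), K := sum_le_sum fun a _ => hK a
    _ = wt u * K := by simp [wt]

end wt


section cplx

variable {V : Type} [DecidableEq V]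

lemma Cplx.mem_face {X : Cplx V} {i : ℕ} {s : Finset V} :
    s ∈ X.face i ↔ s ∈ X.faces ∧ s.card = i + 1 := by
  simp [Cplx.face]

lemma Cplx.cobdry_apply (X : Cplx V) (i : ℕ) (f : X.Cochain i) (t : X.face (i + 1)) :
    X.cobdry i f t = ∑ s : X.face i, if s.1 ⊆ t.1 then f s else 0 := rfl

lemma Cplx.cobdry_single (X : Cplx V) (i : ℕ) (s : X.face i) (t : X.face (i + 1)) :
    X.cobdry i (Pi.single s 1) t = if s.1 ⊆ t.1 then 1 else 0 := by
  rw [Cplx.cobdry_apply, Finset.sum_eq_single s]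
  · simp
  · intro b _ hb
    simp [Pi.single_eq_of_ne hb]
  · intro h
    exact absurd (mem_univ s) h

/-- the faces `t` with `s ⊆ t ⊆ r` and one more vertex than `s`, when `r` has two more -/
lemma Cplx.between_eq_image (X : Cplx V) (i : ℕ) {s r : Finset V} (hs : s.card = i + 1)
    (hr : r ∈ X.faces) (hsr : s ⊆ r) :
    (X.face (i + 1)).filter (fun t => t ⊆ r ∧ s ⊆ t) = (r \ s).image (fun x => insert x s) := by
  ext t
  simp only [mem_filter, Cplx.mem_face, mem_image, mem_sdiff]
  constructor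
  · rintro ⟨⟨_, htc⟩, htr, hst⟩
    have hc : (t \ s).card = 1 := by
      rw [card_sdiff_of_subset hst, htc, hs]; omega
    obtain ⟨x, hx⟩ := card_eq_one.1 hc
    have hxt : x ∈ t \ s := by rw [hx]; exact mem_singleton_self x
    rw [mem_sdiff] at hxt
    refine ⟨x, ⟨htr hxt.1, hxt.2⟩, ?_⟩
    rw [insert_eq, ← hx, sdiff_union_of_subset hst]
  · rintro ⟨x, ⟨hxr, hxs⟩, rfl⟩
    have hsub : insert x s ⊆ r := insert_subset hxr hsr
    refine ⟨⟨X.down_closed r hr _ hsub (insert_nonempty x s), ?_⟩, hsub, subset_insert x s⟩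
    rw [card_insert_of_notMem hxs, hs]

lemma Cplx.cobdry_cobdry (X : Cplx V) (i : ℕ) (f : X.Cochain i) :
    X.cobdry (i + 1) (X.cobdry i f) = 0 := by
  have key : (X.cobdry (i + 1)).comp (X.cobdry i) = 0 := by
    refine LinearMap.pi_ext fun s c => ?_
    have hc : (Pi.single s c : X.Cochain i) = c • Pi.single s 1 := by
      funext b
      by_cases hb : b = s
      · subst hb; simp
      · simp [Pi.single_eq_of_ne hb]
    rw [hc, map_smul]
    have : (X.cobdry (i + 1)).comp (X.cobdry i) (Pi.single s 1) = 0 := by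
      funext r
      rw [LinearMap.comp_apply, Cplx.cobdry_apply]
      simp only [Cplx.cobdry_single, Pi.zero_apply]
      have hs := Cplx.mem_face.1 s.2
      have hr := Cplx.mem_face.1 r.2
      have e1 : (∑ t : X.face (i + 1), if t.1 ⊆ r.1 then (if s.1 ⊆ t.1 then (1 : ZMod 2) else 0) else 0)
          = ∑ t ∈ X.face (i + 1), if (t ⊆ r.1 ∧ s.1 ⊆ t) then (1 : ZMod 2) else 0 := by
        rw [← Finset.sum_coe_sort (X.face (i + 1))]
        refine sum_congr rfl fun t _ => ?_
        by_cases h1 : t.1 ⊆ r.1 <;> by_cases h2 : s.1 ⊆ t.1 <;> simp [h1, h2]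
      rw [e1, ← sum_filter, sum_const, nsmul_eq_mul, mul_one]
      by_cases hsr : s.1 ⊆ r.1
      · rw [Cplx.between_eq_image X i hs.2 hr.1 hsr, card_image_of_injOn]
        · rw [card_sdiff_of_subset hsr, hr.2, hs.2]
          have : i + 1 + 1 + 1 - (i + 1) = 2 := by omega
          rw [this]
          rfl
        · intro x hx y hy hxy
          simp only [coe_sdiff, Set.mem_sdiff, mem_coe] at hx hy
          have hx' : x ∈ insert y s.1 := by
            have : x ∈ insert x s.1 := mem_insert_self x _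
            simpa [hxy] using this
          rcases mem_insert.1 hx' with h | h
          · exact h
          · exact absurd h hx.2
      · have : (X.face (i + 1)).filter (fun t => t ⊆ r.1 ∧ s.1 ⊆ t) = ∅ := by
          rw [filter_eq_empty_iff]
          rintro t _ ⟨h1, h2⟩
          exact hsr (h2.trans h1)
        rw [this]; simp
    rw [this, smul_zero]
    rfl
  have := LinearMap.congr_fun key f
  simpa using this


lemma Cplx.topDeg_pos {X : Cplx V} {d : ℕ} (hp : X.IsPure d) {s : Finset V} (hs : s ∈ X.faces) :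
    1 ≤ X.topDeg d s := by
  obtain ⟨t, ht, hst⟩ := hp s hs
  unfold Cplx.topDeg
  exact card_pos.2 ⟨t, mem_filter.2 ⟨ht, hst⟩⟩

lemma Cplx.topDeg_le {X : Cplx V} {d D : ℕ} (hD : X.degree d ≤ D) {s : Finset V}
    (hs : s ∈ X.faces) : X.topDeg d s ≤ D := by
  obtain ⟨x, hx⟩ := X.nonempty_of_mem s hs
  have hx0 : ({x} : Finset V) ∈ X.face 0 := by
    rw [Cplx.mem_face]
    exact ⟨X.down_closed s hs _ (singleton_subset_iff.2 hx) (singleton_nonempty x), by simp⟩
  have h1 : X.topDeg d s ≤ X.topDeg d {x} := by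
    unfold Cplx.topDeg
    refine card_le_card ?_
    intro t ht
    rw [mem_filter] at ht ⊢
    exact ⟨ht.1, (singleton_subset_iff.2 hx).trans ht.2⟩
  have h2 : X.topDeg d {x} ≤ X.degree d :=
    Finset.le_sup (f := fun v => X.topDeg d v) hx0
  exact h1.trans (h2.trans hD)

/-- the normalising constant `binom(d+1, i+1) * |X(d)|` -/
noncomputable def Cplx.nrm (X : Cplx V) (d i : ℕ) : ℝ :=
  (((d + 1).choose (i + 1) : ℕ) : ℝ) * ((X.face d).card : ℝ)

lemma Cplx.nrm_pos {X : Cplx V} {d i : ℕ} (hi : i ≤ d) (hT : 0 < (X.face d).card) :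
    0 < X.nrm d i := by
  unfold Cplx.nrm
  have : 0 < (d + 1).choose (i + 1) := Nat.choose_pos (by omega)
  positivity

lemma Cplx.norm_nonneg (X : Cplx V) (d i : ℕ) (f : X.Cochain i) : 0 ≤ X.norm d i f := by
  unfold Cplx.norm
  refine sum_nonneg fun s _ => ?_
  split_ifs
  · unfold Cplx.weight; positivity
  · exact le_rfl

lemma Cplx.norm_le {X : Cplx V} {d D i : ℕ} (hD : X.degree d ≤ D)
    (f : X.Cochain i) : X.norm d i f * X.nrm d i ≤ wt f * D := by
  by_cases h0 : X.nrm d i = 0
  · rw [h0, mul_zero]; positivity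
  have hpos : 0 < X.nrm d i := lt_of_le_of_ne (by unfold Cplx.nrm; positivity) (Ne.symm h0)
  unfold Cplx.norm
  rw [sum_mul]
  calc ∑ s : X.face i, (if f s ≠ 0 then X.weight d i s.1 else 0) * X.nrm d i
      ≤ ∑ s : X.face i, (if f s ≠ 0 then (D : ℝ) else 0) := by
        refine sum_le_sum fun s _ => ?_
        split_ifs with h
        · have hs := (Cplx.mem_face.1 s.2).1
          have : X.weight d i s.1 * X.nrm d i = X.topDeg d s.1 := by
            unfold Cplx.weight
            exact div_mul_cancel₀ _ h0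
          rw [this]
          exact_mod_cast Cplx.topDeg_le hD hs
        · simp
    _ = wt f * D := by
        rw [← sum_filter, sum_const, nsmul_eq_mul]
        rfl

lemma Cplx.le_norm {X : Cplx V} {d i : ℕ} (hp : X.IsPure d) (hi : i ≤ d)
    (hT : 0 < (X.face d).card) (f : X.Cochain i) : (wt f : ℝ) ≤ X.norm d i f * X.nrm d i := by
  have hpos : 0 < X.nrm d i := Cplx.nrm_pos hi hT
  unfold Cplx.norm
  rw [sum_mul]
  calc (wt f : ℝ) = ∑ s : X.face i, (if f s ≠ 0 then (1 : ℝ) else 0) := by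
        rw [← sum_filter, sum_const, nsmul_eq_mul, mul_one]
        rfl
    _ ≤ ∑ s : X.face i, (if f s ≠ 0 then X.weight d i s.1 else 0) * X.nrm d i := by
        refine sum_le_sum fun s _ => ?_
        split_ifs with h
        · have hs := (Cplx.mem_face.1 s.2).1
          have : X.weight d i s.1 * X.nrm d i = X.topDeg d s.1 := by
            unfold Cplx.weight
            exact div_mul_cancel₀ _ hpos.ne'
          rw [this]
          exact_mod_cast Cplx.topDeg_pos hp hs
        · simp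

lemma Cplx.eq_zero_of_norm_eq_zero {X : Cplx V} {d i : ℕ} (hp : X.IsPure d) (hi : i ≤ d)
    (hT : 0 < (X.face d).card) {f : X.Cochain i} (h : X.norm d i f = 0) : f = 0 := by
  have := Cplx.le_norm hp hi hT f
  rw [h, zero_mul] at this
  exact eq_zero_of_wt_eq_zero (by exact_mod_cast le_antisymm this (by positivity))

lemma Cplx.norm_zero (X : Cplx V) (d i : ℕ) : X.norm d i 0 = 0 := by
  simp [Cplx.norm]

/-- `binom(d+1, i+1) ≤ (i+2) * binom(d+1, i+2)` for `i < d` -/
lemma Cplx.nrm_le_succ (X : Cplx V) {d i : ℕ} (hi : i < d) :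
    X.nrm d i ≤ (d + 1 : ℝ) * X.nrm d (i + 1) := by
  unfold Cplx.nrm
  have h := Nat.choose_succ_right_eq (d + 1) (i + 1)
  have h1 : (d + 1).choose (i + 1) ≤ (d + 1) * (d + 1).choose (i + 1 + 1) := by
    calc (d + 1).choose (i + 1) ≤ (d + 1).choose (i + 1) * (d + 1 - (i + 1)) :=
          Nat.le_mul_of_pos_right _ (by omega)
      _ = (d + 1).choose (i + 1 + 1) * (i + 1 + 1) := h.symm
      _ ≤ (d + 1).choose (i + 1 + 1) * (d + 1) := Nat.mul_le_mul_left _ (by omega)
      _ = (d + 1) * (d + 1).choose (i + 1 + 1) := Nat.mul_comm _ _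
  have h2 : (((d + 1).choose (i + 1) : ℕ) : ℝ) ≤ (d + 1 : ℝ) * (((d + 1).choose (i + 1 + 1) : ℕ) : ℝ) := by
    exact_mod_cast h1
  calc (((d + 1).choose (i + 1) : ℕ) : ℝ) * ((X.face d).card : ℝ)
      ≤ ((d + 1 : ℝ) * (((d + 1).choose (i + 1 + 1) : ℕ) : ℝ)) * ((X.face d).card : ℝ) :=
        mul_le_mul_of_nonneg_right h2 (by positivity)
    _ = _ := by ring

/-- number of cofaces of a face -/
lemma Cplx.wt_cobdry_single_le {X : Cplx V} {d D i : ℕ} (hp : X.IsPure d) (hD : X.degree d ≤ D)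
    (s : X.face i) : wt (X.cobdry i (Pi.single s 1)) ≤ D * (d + 1) := by
  have hs := Cplx.mem_face.1 s.2
  set U : Finset V := ((X.face d).filter (fun t => s.1 ⊆ t)).biUnion id with hU
  have hUcard : U.card ≤ D * (d + 1) := by
    calc U.card ≤ ∑ t ∈ (X.face d).filter (fun t => s.1 ⊆ t), (id t).card := card_biUnion_le
      _ = ∑ t ∈ (X.face d).filter (fun t => s.1 ⊆ t), (d + 1) := by
          refine sum_congr rfl fun t ht => ?_
          exact (Cplx.mem_face.1 (mem_filter.1 ht).1).2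
      _ = X.topDeg d s.1 * (d + 1) := by rw [sum_const, smul_eq_mul]; rfl
      _ ≤ D * (d + 1) := Nat.mul_le_mul_right _ (Cplx.topDeg_le hD hs.1)
  refine le_trans ?_ hUcard
  unfold wt
  have hsub : ((univ.filter (fun t : X.face (i + 1) => X.cobdry i (Pi.single s 1) t ≠ 0)).image
      (fun t => t.1)) ⊆ U.image (fun x => insert x s.1) := by
    intro t ht
    simp only [mem_image, mem_filter, mem_univ, true_and] at ht
    obtain ⟨t', ht', rfl⟩ := ht
    rw [Cplx.cobdry_single] at ht'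
    have hst : s.1 ⊆ t'.1 := by
      by_contra hcon
      simp [hcon] at ht'
    have htf := Cplx.mem_face.1 t'.2
    have hc : (t'.1 \ s.1).card = 1 := by
      rw [card_sdiff_of_subset hst, htf.2, hs.2]; omega
    obtain ⟨x, hx⟩ := card_eq_one.1 hc
    have hxt : x ∈ t'.1 \ s.1 := by rw [hx]; exact mem_singleton_self x
    rw [mem_sdiff] at hxt
    obtain ⟨r, hr, htr⟩ := hp t'.1 htf.1
    rw [mem_image]
    refine ⟨x, ?_, ?_⟩
    · rw [hU, mem_biUnion]
      exact ⟨r, mem_filter.2 ⟨hr, hst.trans htr⟩, htr hxt.1⟩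
    · rw [insert_eq, ← hx, sdiff_union_of_subset hst]
  calc (univ.filter (fun t : X.face (i + 1) => X.cobdry i (Pi.single s 1) t ≠ 0)).card
      = ((univ.filter (fun t : X.face (i + 1) => X.cobdry i (Pi.single s 1) t ≠ 0)).image
          (fun t => t.1)).card := by
        rw [card_image_of_injective _ Subtype.val_injective]
    _ ≤ (U.image (fun x => insert x s.1)).card := card_le_card hsub
    _ ≤ U.card := card_image_le


lemma Cplx.isCobdry_zero (X : Cplx V) (i : ℕ) : X.IsCobdry i 0 := by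
  cases i with
  | zero => exact ⟨0, fun _ => rfl⟩
  | succ i => exact ⟨0, map_zero _⟩

lemma Cplx.exists_distB (X : Cplx V) (d i : ℕ) (f : X.Cochain i) :
    ∃ a, X.IsCobdry i a ∧ X.distB d i f = X.norm d i (f - a) := by
  have hne : ((fun a => X.norm d i (f - a)) '' {a | X.IsCobdry i a}).Nonempty :=
    ⟨_, ⟨0, X.isCobdry_zero i, rfl⟩⟩
  have hfin : ((fun a => X.norm d i (f - a)) '' {a | X.IsCobdry i a}).Finite :=
    (Set.toFinite _).image _
  obtain ⟨a, ha, hEq⟩ := hne.csInf_mem hfin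
  exact ⟨a, ha, hEq.symm⟩

lemma Cplx.distB_le (X : Cplx V) (d i : ℕ) (f a : X.Cochain i) (ha : X.IsCobdry i a) :
    X.distB d i f ≤ X.norm d i (f - a) := by
  have hfin : ((fun a => X.norm d i (f - a)) '' {a | X.IsCobdry i a}).Finite :=
    (Set.toFinite _).image _
  exact csInf_le hfin.bddBelow ⟨a, ha, rfl⟩

lemma Cplx.distB_nonneg (X : Cplx V) (d i : ℕ) (f : X.Cochain i) : 0 ≤ X.distB d i f := by
  obtain ⟨a, _, h⟩ := X.exists_distB d i f
  rw [h]
  exact X.norm_nonneg d i _

lemma Cplx.vertices_of_edge (X : Cplx V) {t : Finset V} (ht : t ∈ X.faces) :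
    (X.face 0).filter (fun s => s ⊆ t) = t.image (fun x => {x}) := by
  ext s
  simp only [mem_filter, Cplx.mem_face, mem_image]
  constructor
  · rintro ⟨⟨_, hc⟩, hst⟩
    obtain ⟨x, rfl⟩ := card_eq_one.1 hc
    exact ⟨x, singleton_subset_iff.1 hst, rfl⟩
  · rintro ⟨x, hx, rfl⟩
    have hsub : ({x} : Finset V) ⊆ t := singleton_subset_iff.2 hx
    exact ⟨⟨X.down_closed t ht _ hsub (singleton_nonempty x), by simp⟩, hsub⟩

lemma Cplx.cobdry_const (X : Cplx V) (c : ZMod 2) : X.cobdry 0 (fun _ => c) = 0 := by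
  funext t
  rw [Cplx.cobdry_apply]
  have ht := Cplx.mem_face.1 t.2
  have e1 : (∑ s : X.face 0, if s.1 ⊆ t.1 then c else 0)
      = ∑ s ∈ X.face 0, if s ⊆ t.1 then c else 0 := by
    rw [← Finset.sum_coe_sort (X.face 0)]
  rw [e1, ← sum_filter, sum_const, Cplx.vertices_of_edge X ht.1,
    card_image_of_injective _ (singleton_injective), ht.2]
  have : (2 : ZMod 2) = 0 := rfl
  simp [this]

lemma Cplx.cobdry_of_isCobdry (X : Cplx V) (i : ℕ) (a : X.Cochain i) (ha : X.IsCobdry i a) :
    X.cobdry i a = 0 := by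
  cases i with
  | zero =>
    obtain ⟨c, hc⟩ := ha
    have : a = fun _ => c := funext hc
    rw [this]
    exact X.cobdry_const c
  | succ i =>
    obtain ⟨g, rfl⟩ := ha
    exact X.cobdry_cobdry i g

/-- Filling lemma: every coboundary has a primitive of controlled norm. -/
lemma Cplx.exists_fill {X : Cplx V} {d : ℕ} {ε : ℝ} (hX : X.IsCoboundaryExpander d ε) {i : ℕ}
    (hi : i < d) (g0 : X.Cochain i) :
    ∃ g : X.Cochain i, X.cobdry i g = X.cobdry i g0 ∧
      ε * X.norm d i g ≤ X.norm d (i + 1) (X.cobdry i g0) := by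
  obtain ⟨a, ha, hEq⟩ := X.exists_distB d i g0
  refine ⟨g0 - a, ?_, ?_⟩
  · rw [map_sub, X.cobdry_of_isCobdry i a ha, sub_zero]
  · rw [← hEq]
    exact hX i hi g0

/-- Filling lemma in terms of Hamming weights. -/
lemma Cplx.exists_fill_wt {X : Cplx V} {d D : ℕ} {ε : ℝ} (hε : 0 < ε) (hp : X.IsPure d)
    (hD : X.degree d ≤ D) (hT : 0 < (X.face d).card)
    (hX : X.IsCoboundaryExpander d ε) {i : ℕ} (hi : i < d) (g0 : X.Cochain i) :
    ∃ g : X.Cochain i, X.cobdry i g = X.cobdry i g0 ∧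
      ε * (wt g : ℝ) ≤ (D * (d + 1) : ℝ) * wt (X.cobdry i g0) := by
  obtain ⟨g, hg, hn⟩ := Cplx.exists_fill hX hi g0
  refine ⟨g, hg, ?_⟩
  have h1 := Cplx.le_norm hp hi.le hT g
  have h2 := Cplx.norm_le (i := i + 1) hD (X.cobdry i g0)
  have h3 := X.nrm_le_succ hi
  have hn0 : 0 ≤ X.nrm d i := (Cplx.nrm_pos hi.le hT).le
  have hc0 := X.norm_nonneg d (i + 1) (X.cobdry i g0)
  calc ε * (wt g : ℝ) ≤ ε * (X.norm d i g * X.nrm d i) := mul_le_mul_of_nonneg_left h1 hε.le
    _ = (ε * X.norm d i g) * X.nrm d i := by ring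
    _ ≤ X.norm d (i + 1) (X.cobdry i g0) * X.nrm d i := mul_le_mul_of_nonneg_right hn hn0
    _ ≤ X.norm d (i + 1) (X.cobdry i g0) * ((d + 1 : ℝ) * X.nrm d (i + 1)) :=
        mul_le_mul_of_nonneg_left h3 hc0
    _ = (d + 1 : ℝ) * (X.norm d (i + 1) (X.cobdry i g0) * X.nrm d (i + 1)) := by ring
    _ ≤ (d + 1 : ℝ) * (wt (X.cobdry i g0) * D) := mul_le_mul_of_nonneg_left h2 (by positivity)
    _ = _ := by ring

/-- Cocycles are coboundaries in a coboundary expander. -/
lemma Cplx.isCobdry_of_cocycle {X : Cplx V} {d : ℕ} {ε : ℝ} (hε : 0 < ε) (hp : X.IsPure d)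
    (hT : 0 < (X.face d).card) (hX : X.IsCoboundaryExpander d ε) {i : ℕ} (hi : i < d)
    (c : X.Cochain i) (hc : X.cobdry i c = 0) : X.IsCobdry i c := by
  obtain ⟨a, ha, hEq⟩ := X.exists_distB d i c
  have h := hX i hi c
  rw [hc, X.norm_zero, hEq] at h
  have h0 : X.norm d i (c - a) = 0 := by
    have h1 := X.norm_nonneg d i (c - a)
    nlinarith
  have := Cplx.eq_zero_of_norm_eq_zero hp hi.le hT h0
  rw [sub_eq_zero] at this
  rw [this]
  exact ha

end cplx

end Vale.Agent.Lib.P067
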