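import Mathlib

/-!
# P067: finite simplicial complexes, F_2-cochains, weighted norms, coboundary expansion

All conventions follow the problem file.
-/

namespace Vale.Agent.Lib.P067

open Finset

/-- A finite abstract simplicial complex with vertices in `V`: a finite family of nonempty
finite sets (the faces) closed under passing to nonempty subsets. -/
structure Cplx (V : Type) [DecidableEq V] where
  faces : Finset (Finset V)
  nonempty_of_mem : ∀ s ∈ faces, s.Nonempty
  down_closed : ∀ s ∈ faces, ∀ t : Finset V, t ⊆ s → t.Nonempty → t ∈ faces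

variable {V : Type} [DecidableEq V]

/-- `X.face i` is `X(i)`, the set of faces with `i + 1` vertices. -/
def Cplx.face (X : Cplx V) (i : ℕ) : Finset (Finset V) :=
  X.faces.filter (fun s => s.card = i + 1)

/-- `X` is pure `d`-dimensional: every face lies in a face with `d + 1` vertices. -/
def Cplx.IsPure (X : Cplx V) (d : ℕ) : Prop :=
  ∀ s ∈ X.faces, ∃ t ∈ X.face d, s ⊆ t

/-- The number of `d`-faces containing the set `s`. -/
def Cplx.topDeg (X : Cplx V) (d : ℕ) (s : Finset V) : ℕ :=
  ((X.face d).filter (fun t => s ⊆ t)).card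

/-- The degree of `X`: the largest number of `d`-faces containing a single vertex. -/
def Cplx.degree (X : Cplx V) (d : ℕ) : ℕ :=
  (X.face 0).sup (fun v => X.topDeg d v)

/-- The weight `w_i(s) = #{t in X(d) : s ⊆ t} / (binom(d+1, i+1) * |X(d)|)`. -/
noncomputable def Cplx.weight (X : Cplx V) (d i : ℕ) (s : Finset V) : ℝ :=
  (X.topDeg d s : ℝ) / ((((d + 1).choose (i + 1) : ℕ) : ℝ) * ((X.face d).card : ℝ))

/-- `C^i(X)`: the functions `X(i) → F_2`. -/
abbrev Cplx.Cochain (X : Cplx V) (i : ℕ) : Type := X.face i → ZMod 2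

/-- The weighted norm: the total weight of the support of `f`. -/
noncomputable def Cplx.norm (X : Cplx V) (d i : ℕ) (f : X.Cochain i) : ℝ :=
  ∑ s : X.face i, if f s ≠ 0 then X.weight d i s.1 else 0

/-- The coboundary map `C^i(X) → C^(i+1)(X)`,
`(cobdry f)(t) = sum of f(s) over the i-faces s contained in t`. -/
def Cplx.cobdry (X : Cplx V) (i : ℕ) : X.Cochain i →ₗ[ZMod 2] X.Cochain (i + 1) where
  toFun f := fun t => ∑ s : X.face i, if s.1 ⊆ t.1 then f s else 0
  map_add' f g := by
    funext t
    simp only [Pi.add_apply, ← Finset.sum_add_distrib]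
    refine Finset.sum_congr rfl fun s _ => ?_
    split_ifs <;> simp
  map_smul' c f := by
    funext t
    simp only [Pi.smul_apply, smul_eq_mul, RingHom.id_apply, Finset.mul_sum]
    refine Finset.sum_congr rfl fun s _ => ?_
    split_ifs <;> simp

/-- `B^i`: the constant functions for `i = 0`, the image of the coboundary map for `i ≥ 1`. -/
def Cplx.IsCobdry (X : Cplx V) : (i : ℕ) → X.Cochain i → Prop
  | 0, f => ∃ c : ZMod 2, ∀ v, f v = c
  | (i + 1), f => ∃ g : X.Cochain i, X.cobdry i g = f

/-- `dist_i(f, B^i)`, the minimum of `‖f - a‖_i` over `a` in `B^i`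
(an infimum over a finite nonempty set). -/
noncomputable def Cplx.distB (X : Cplx V) (d i : ℕ) (f : X.Cochain i) : ℝ :=
  sInf ((fun a => X.norm d i (f - a)) '' {a | X.IsCobdry i a})

/-- `X` (of dimension `d`) is an `ε`-coboundary expander:
`‖cobdry f‖_(i+1) ≥ ε * dist_i(f, B^i)` for all `0 ≤ i < d` and all `f` in `C^i(X)`. -/
def Cplx.IsCoboundaryExpander (X : Cplx V) (d : ℕ) (ε : ℝ) : Prop :=
  ∀ i, i < d → ∀ f : X.Cochain i, ε * X.distB d i f ≤ X.norm d (i + 1) (X.cobdry i f)

end Vale.Agent.Lib.P067
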