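import Vale.Agent.Lib.P067.Defs

/-!
# P067: coboundary expansion at a single level
-/

namespace Vale.Agent.Lib.P067

variable {V : Type} [DecidableEq V]

/-- `X` (of dimension `d`) satisfies the coboundary expansion inequality at level `i` with
constant `ε`: `‖cobdry f‖_(i+1) ≥ ε * dist_i(f, B^i)` for all `f` in `C^i(X)`.
(`X` is an `ε`-coboundary expander iff this holds for all `i < d`.) -/
def Cplx.ExpandsAt (X : Cplx V) (d i : ℕ) (ε : ℝ) : Prop :=
  ∀ f : X.Cochain i, ε * X.distB d i f ≤ X.norm d (i + 1) (X.cobdry i f)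

end Vale.Agent.Lib.P067
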