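import Vale.Agent.Lib.P067.TopBetti
import Vale.Agent.Lib.P067.LevelDefs

/-!
# P067: the product of the expansion constants of all levels is at most `C (h+1) / n`
-/

namespace Vale.Agent.Lib.P067

open Finset

variable {V : Type} [DecidableEq V]

lemma Cplx.ExpandsAt.exists_fill {X : Cplx V} {d i : ℕ} {ε : ℝ} (hX : X.ExpandsAt d i ε)
    (g0 : X.Cochain i) :
    ∃ g : X.Cochain i, X.cobdry i g = X.cobdry i g0 ∧
      ε * X.norm d i g ≤ X.norm d (i + 1) (X.cobdry i g0) := by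
  obtain ⟨a, ha, hEq⟩ := X.exists_distB d i g0
  refine ⟨g0 - a, ?_, ?_⟩
  · rw [map_sub, X.cobdry_of_isCobdry i a ha, sub_zero]
  · rw [← hEq]
    exact hX g0

lemma Cplx.ExpandsAt.exists_fill_wt {X : Cplx V} {d D i : ℕ} {ε : ℝ} (hε : 0 < ε)
    (hp : X.IsPure d) (hD : X.degree d ≤ D) (hT : 0 < (X.face d).card)
    (hX : X.ExpandsAt d i ε) (hi : i < d) (g0 : X.Cochain i) :
    ∃ g : X.Cochain i, X.cobdry i g = X.cobdry i g0 ∧
      ε * (wt g : ℝ) ≤ (D * (d + 1) : ℝ) * wt (X.cobdry i g0) := by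
  obtain ⟨g, hg, hn⟩ := hX.exists_fill g0
  refine ⟨g, hg, ?_⟩
  have h1 := Cplx.le_norm hp hi.le hT g
  have h2 := Cplx.norm_le (i := i + 1) hD (X.cobdry i g0)
  have h3 := X.nrm_le_succ hi
  have hn0 : 0 ≤ X.nrm d i := (Cplx.nrm_pos hi.le hT).le
  have hc0 := X.norm_nonneg d (i + 1) (X.cobdry i g0)
  calc ε * (wt g : ℝ) ≤ ε * (X.norm d i g * X.nrm d i) := mul_le_mul_of_nonneg_left h1 hε.le
    _ = (ε * X.norm d i g) * X.nrm d i := by ring
    _ ≤ X.norm d (i + 1) (X.cobdry i g0) * X.nrm d i := mul_le_mul_of_nonneg_right hn hn0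
    _ ≤ X.norm d (i + 1) (X.cobdry i g0) * ((d + 1 : ℝ) * X.nrm d (i + 1)) :=
        mul_le_mul_of_nonneg_left h3 hc0
    _ = (d + 1 : ℝ) * (X.norm d (i + 1) (X.cobdry i g0) * X.nrm d (i + 1)) := by ring
    _ ≤ (d + 1 : ℝ) * (wt (X.cobdry i g0) * D) := mul_le_mul_of_nonneg_left h2 (by positivity)
    _ = _ := by ring

lemma Cplx.ExpandsAt.isCobdry_of_cocycle {X : Cplx V} {d i : ℕ} {ε : ℝ} (hε : 0 < ε)
    (hp : X.IsPure d) (hT : 0 < (X.face d).card) (hX : X.ExpandsAt d i ε) (hi : i < d)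
    (c : X.Cochain i) (hc : X.cobdry i c = 0) : X.IsCobdry i c := by
  obtain ⟨a, ha, hEq⟩ := X.exists_distB d i c
  have h := hX c
  rw [hc, X.norm_zero, hEq] at h
  have h0 : X.norm d i (c - a) = 0 := by
    have h1 := X.norm_nonneg d i (c - a)
    nlinarith
  have := Cplx.eq_zero_of_norm_eq_zero hp hi.le hT h0
  rw [sub_eq_zero] at this
  rw [this]
  exact ha

lemma Cplx.hasHomotopy_step' {X : Cplx V} {d D : ℕ} {ε ε' : ℝ} (hε : 0 < ε) (hε' : 0 < ε')
    (hp : X.IsPure d) (hD : X.degree d ≤ D) (hT : 0 < (X.face d).card)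
    {k : ℕ} (hk : k + 1 < d) (hX : X.ExpandsAt d k ε) (hX' : X.ExpandsAt d (k + 1) ε')
    {K : ℝ} (hK : 0 ≤ K) (h : X.HasHomotopy (k + 1) K) :
    X.HasHomotopy k ((1 + (D * (d + 1) : ℝ) * K) * ((D * (d + 1) : ℝ) / ε)) := by
  obtain ⟨F', hF', hK'⟩ := h
  set c : X.face (k + 1) → X.Cochain (k + 1) :=
    fun t => Pi.single t 1 - F' (X.cobdry (k + 1) (Pi.single t 1)) with hc
  have hcz : ∀ t, X.cobdry (k + 1) (c t) = 0 := by
    intro t
    simp only [hc, map_sub, hF', sub_self]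
  have hcw : ∀ t, (wt (c t) : ℝ) ≤ 1 + (D * (d + 1) : ℝ) * K := by
    intro t
    have h1 : wt (c t) ≤ wt (Pi.single t (1 : ZMod 2) : X.Cochain (k + 1))
        + wt (F' (X.cobdry (k + 1) (Pi.single t 1))) := wt_sub_le _ _
    have h2 : wt (Pi.single t (1 : ZMod 2) : X.Cochain (k + 1)) ≤ 1 := wt_single_le t
    have h3 := wt_map_le F' K hK' (X.cobdry (k + 1) (Pi.single t 1))
    have h4 : (wt (X.cobdry (k + 1) (Pi.single t 1)) : ℝ) ≤ (D * (d + 1) : ℝ) := by
      exact_mod_cast Cplx.wt_cobdry_single_le hp hD t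
    have h5 : (wt (c t) : ℝ) ≤ 1 + (wt (F' (X.cobdry (k + 1) (Pi.single t 1))) : ℝ) := by
      have : wt (c t) ≤ 1 + wt (F' (X.cobdry (k + 1) (Pi.single t 1))) := by omega
      exact_mod_cast this
    have h6 : (wt (X.cobdry (k + 1) (Pi.single t 1)) : ℝ) * K ≤ (D * (d + 1) : ℝ) * K :=
      mul_le_mul_of_nonneg_right h4 hK
    linarith
  have hex : ∀ t, ∃ g : X.Cochain k, X.cobdry k g = c t ∧
      ε * (wt g : ℝ) ≤ (D * (d + 1) : ℝ) * wt (c t) := by
    intro t
    obtain ⟨g0, hg0⟩ : X.IsCobdry (k + 1) (c t) :=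
      hX'.isCobdry_of_cocycle hε' hp hT hk (c t) (hcz t)
    obtain ⟨g, hg, hw⟩ := hX.exists_fill_wt hε hp hD hT (by omega : k < d) g0
    rw [hg0] at hg hw
    exact ⟨g, hg, hw⟩
  choose g hg hgw using hex
  refine ⟨Fintype.linearCombination (ZMod 2) g, ?_, ?_⟩
  · have key : (X.cobdry k).comp (Fintype.linearCombination (ZMod 2) g)
        = LinearMap.id - F'.comp (X.cobdry (k + 1)) := by
      refine linearMap_ext_single _ _ fun t => ?_
      simp only [LinearMap.comp_apply, Fintype.linearCombination_apply_single, one_smul, hg,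
        LinearMap.sub_apply, LinearMap.id_apply, hc]
    intro f
    have := LinearMap.congr_fun key (X.cobdry k f)
    simp only [LinearMap.comp_apply, LinearMap.sub_apply, LinearMap.id_apply,
      X.cobdry_cobdry, map_zero, sub_zero] at this
    exact this
  · intro t
    rw [Fintype.linearCombination_apply_single, one_smul]
    have h1 := hgw t
    have h2 := hcw t
    have hM : (0 : ℝ) ≤ (D * (d + 1) : ℝ) := by positivity
    rw [mul_div_assoc', le_div_iff₀ hε]
    calc (wt (g t) : ℝ) * ε = ε * wt (g t) := mul_comm _ _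
      _ ≤ (D * (d + 1) : ℝ) * wt (c t) := h1
      _ ≤ (D * (d + 1) : ℝ) * (1 + (D * (d + 1) : ℝ) * K) := mul_le_mul_of_nonneg_left h2 hM
      _ = _ := by ring

lemma Cplx.hasHomotopy_top' {X : Cplx V} {e D : ℕ} {ε : ℝ} (hε : 0 < ε) (hp : X.IsPure (e + 1))
    (hD : X.degree (e + 1) ≤ D) (hT : 0 < (X.face (e + 1)).card)
    (hX : X.ExpandsAt (e + 1) e ε) :
    X.HasHomotopy e
      (((Module.finrank (ZMod 2) (X.Cochain (e + 1) ⧸ LinearMap.range (X.cobdry e)) : ℝ) + 1)
        * ((D * ((e + 1 : ℕ) + 1) : ℝ) / ε)) := by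
  classical
  set B := LinearMap.range (X.cobdry e) with hB
  set v : X.face (e + 1) → (X.Cochain (e + 1) ⧸ B) := fun t => B.mkQ (Pi.single t 1) with hv
  obtain ⟨κ, a, ha, hsp, hli⟩ := exists_linearIndependent' (ZMod 2) v
  have : Finite κ := Finite.of_injective a ha
  let _ : Fintype κ := Fintype.ofFinite κ
  have hcard : Fintype.card κ ≤ Module.finrank (ZMod 2) (X.Cochain (e + 1) ⧸ B) :=
    hli.fintype_card_le_finrank
  have hmem : ∀ t, ∃ c : κ → ZMod 2, ∑ j, c j • (v ∘ a) j = v t := by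
    intro t
    rw [← Submodule.mem_span_range_iff_exists_fun, hsp]
    exact Submodule.subset_span ⟨t, rfl⟩
  choose c hc using hmem
  set b : X.face (e + 1) → X.Cochain (e + 1) :=
    fun t => Pi.single t 1 - ∑ j, c t j • (Pi.single (a j) 1 : X.Cochain (e + 1)) with hb
  have hbB : ∀ t, b t ∈ B := by
    intro t
    rw [← Submodule.ker_mkQ B, LinearMap.mem_ker]
    simp only [hb, map_sub, map_sum, map_smul]
    have := hc t
    simp only [Function.comp, hv] at this
    rw [this, sub_self]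
  have hbw : ∀ t, wt (b t) ≤ 1 + Fintype.card κ := by
    intro t
    have h1 : wt (b t) ≤ wt (Pi.single t (1 : ZMod 2) : X.Cochain (e + 1))
        + wt (∑ j, c t j • (Pi.single (a j) 1 : X.Cochain (e + 1))) := wt_sub_le _ _
    have h2 : wt (Pi.single t (1 : ZMod 2) : X.Cochain (e + 1)) ≤ 1 := wt_single_le t
    have h3 : wt (∑ j, c t j • (Pi.single (a j) 1 : X.Cochain (e + 1))) ≤ Fintype.card κ := by
      calc wt (∑ j, c t j • (Pi.single (a j) 1 : X.Cochain (e + 1)))
          ≤ ∑ j, wt (c t j • (Pi.single (a j) 1 : X.Cochain (e + 1))) := wt_sum_le _ _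
        _ ≤ ∑ _j : κ, 1 := sum_le_sum fun j _ => (wt_smul_le _ _).trans (wt_single_le _)
        _ = Fintype.card κ := by simp
    omega
  have hex : ∀ t, ∃ g : X.Cochain e, X.cobdry e g = b t ∧
      ε * (wt g : ℝ) ≤ (D * ((e + 1 : ℕ) + 1) : ℝ) * wt (b t) := by
    intro t
    obtain ⟨g0, hg0⟩ := hbB t
    obtain ⟨g, hg, hw⟩ := hX.exists_fill_wt hε hp hD hT (by omega : e < e + 1) g0
    rw [hg0] at hg hw
    exact ⟨g, hg, hw⟩
  choose g hg hgw using hex
  refine ⟨Fintype.linearCombination (ZMod 2) g, ?_, ?_⟩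
  · intro f
    set u := X.cobdry e f with hu
    set γ : κ → ZMod 2 := fun j => ∑ t, u t * c t j with hγ
    have hdef : X.cobdry e (Fintype.linearCombination (ZMod 2) g u)
        = u - ∑ j, γ j • (Pi.single (a j) 1 : X.Cochain (e + 1)) := by
      rw [Fintype.linearCombination_apply, map_sum]
      simp only [map_smul, hg, hb, smul_sub]
      rw [sum_sub_distrib, ← eq_sum_single u]
      congr 1
      simp only [smul_sum, hγ, sum_smul, smul_smul]
      rw [sum_comm]
    have hq : ∑ j, γ j • (v ∘ a) j = 0 := by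
      have h1 : B.mkQ (∑ j, γ j • (Pi.single (a j) 1 : X.Cochain (e + 1))) = 0 := by
        rw [← LinearMap.mem_ker, Submodule.ker_mkQ]
        have : ∑ j, γ j • (Pi.single (a j) 1 : X.Cochain (e + 1))
            = u - X.cobdry e (Fintype.linearCombination (ZMod 2) g u) := by
          rw [hdef]; abel
        rw [this]
        exact B.sub_mem ⟨f, rfl⟩ ⟨_, rfl⟩
      simp only [map_sum, map_smul] at h1
      exact h1
    have hγ0 := Fintype.linearIndependent_iff.1 hli γ hq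
    rw [hdef]
    simp [hγ0]
  · intro t
    rw [Fintype.linearCombination_apply_single, one_smul]
    have h1 := hgw t
    have h2 : (wt (b t) : ℝ) ≤ (Module.finrank (ZMod 2) (X.Cochain (e + 1) ⧸ B) : ℝ) + 1 := by
      have : wt (b t) ≤ Module.finrank (ZMod 2) (X.Cochain (e + 1) ⧸ B) + 1 := by
        have := hbw t
        omega
      exact_mod_cast this
    have hM : (0 : ℝ) ≤ (D * ((e + 1 : ℕ) + 1) : ℝ) := by positivity
    rw [mul_div_assoc', le_div_iff₀ hε]
    calc (wt (g t) : ℝ) * ε = ε * wt (g t) := mul_comm _ _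
      _ ≤ (D * ((e + 1 : ℕ) + 1) : ℝ) * wt (b t) := h1
      _ ≤ (D * ((e + 1 : ℕ) + 1) : ℝ)
          * ((Module.finrank (ZMod 2) (X.Cochain (e + 1) ⧸ B) : ℝ) + 1) :=
        mul_le_mul_of_nonneg_left h2 hM
      _ = _ := by ring

lemma Cplx.card_vertices_le' {X : Cplx V} {d D : ℕ} {ε : ℝ} (hε : 0 < ε) (hp : X.IsPure d)
    (hD : X.degree d ≤ D) (hT : 0 < (X.face d).card) (hX : X.ExpandsAt d 0 ε)
    (hd : 0 < d) {K : ℝ} (hK : 0 ≤ K) (h : X.HasHomotopy 0 K) :
    ((X.face 0).card : ℝ) ≤ 1 + (D * (d + 1) : ℝ) * K := by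
  by_contra hcon
  push Not at hcon
  obtain ⟨F, hF, hK'⟩ := h
  set c : X.face 0 → X.Cochain 0 :=
    fun t => Pi.single t 1 - F (X.cobdry 0 (Pi.single t 1)) with hc
  have hcz : ∀ t, X.cobdry 0 (c t) = 0 := by
    intro t
    simp only [hc, map_sub, hF, sub_self]
  have hcw : ∀ t, (wt (c t) : ℝ) ≤ 1 + (D * (d + 1) : ℝ) * K := by
    intro t
    have h1 : wt (c t) ≤ wt (Pi.single t (1 : ZMod 2) : X.Cochain 0)
        + wt (F (X.cobdry 0 (Pi.single t 1))) := wt_sub_le _ _
    have h2 : wt (Pi.single t (1 : ZMod 2) : X.Cochain 0) ≤ 1 := wt_single_le t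
    have h3 := wt_map_le F K hK' (X.cobdry 0 (Pi.single t 1))
    have h4 : (wt (X.cobdry 0 (Pi.single t 1)) : ℝ) ≤ (D * (d + 1) : ℝ) := by
      exact_mod_cast Cplx.wt_cobdry_single_le hp hD t
    have h5 : (wt (c t) : ℝ) ≤ 1 + (wt (F (X.cobdry 0 (Pi.single t 1))) : ℝ) := by
      have : wt (c t) ≤ 1 + wt (F (X.cobdry 0 (Pi.single t 1))) := by omega
      exact_mod_cast this
    have h6 : (wt (X.cobdry 0 (Pi.single t 1)) : ℝ) * K ≤ (D * (d + 1) : ℝ) * K :=
      mul_le_mul_of_nonneg_right h4 hK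
    linarith
  have hc0 : ∀ t, c t = 0 := by
    intro t
    obtain ⟨r, hr⟩ : X.IsCobdry 0 (c t) := hX.isCobdry_of_cocycle hε hp hT hd (c t) (hcz t)
    by_cases hr0 : r = 0
    · funext v
      rw [hr v, hr0]
      rfl
    · exfalso
      have hw : wt (c t) = (X.face 0).card := by
        unfold wt
        rw [filter_true_of_mem (fun v _ => by rw [hr v]; exact hr0), card_univ, Fintype.card_coe]
      have := hcw t
      rw [hw] at this
      linarith
  have key : (LinearMap.id : X.Cochain 0 →ₗ[ZMod 2] X.Cochain 0) = F.comp (X.cobdry 0) := by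
    refine linearMap_ext_single _ _ fun t => ?_
    have := hc0 t
    simp only [hc, sub_eq_zero] at this
    simpa using this
  have hpos : 0 < (X.face 0).card := by
    have h0 : (0 : ℝ) ≤ (D * (d + 1) : ℝ) * K := by positivity
    have : (0 : ℝ) < ((X.face 0).card : ℝ) := by linarith
    exact_mod_cast this
  obtain ⟨v, hv⟩ := card_pos.1 hpos
  have h1 := LinearMap.congr_fun key (fun _ => (1 : ZMod 2))
  simp only [LinearMap.id_apply, LinearMap.comp_apply, X.cobdry_const, map_zero] at h1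
  have h2 := congr_fun h1 ⟨v, hv⟩
  simp at h2

/-- Main inequality with level-dependent constants `0 < ε i ≤ 1`. -/
theorem Cplx.prod_mul_card_vertices_le {X : Cplx V} {e D : ℕ} {ε : ℕ → ℝ}
    (hε : ∀ i, i < e + 1 → 0 < ε i) (hε1 : ∀ i, i < e + 1 → ε i ≤ 1)
    (hp : X.IsPure (e + 1)) (hD : X.degree (e + 1) ≤ D)
    (hX : ∀ i, i < e + 1 → X.ExpandsAt (e + 1) i (ε i)) :
    (∏ i ∈ range (e + 1), ε i) * ((X.face 0).card : ℝ) ≤
      (2 * ((D : ℝ) * ((e : ℝ) + 2)) ^ 2) ^ (e + 1) *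
      ((Module.finrank (ZMod 2) (X.Cochain (e + 1) ⧸ LinearMap.range (X.cobdry e)) : ℝ) + 1) := by
  set h : ℝ := (Module.finrank (ZMod 2) (X.Cochain (e + 1) ⧸ LinearMap.range (X.cobdry e)) : ℝ)
    with hh
  have hh0 : 0 ≤ h := by rw [hh]; positivity
  by_cases hT : 0 < (X.face (e + 1)).card
  · obtain ⟨t, ht⟩ := card_pos.1 hT
    have htf := (Cplx.mem_face.1 ht).1
    have hD1 : 1 ≤ D := (Cplx.topDeg_pos hp htf).trans (Cplx.topDeg_le hD htf)
    set M : ℝ := (D * ((e + 1 : ℕ) + 1) : ℝ) with hM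
    have hM1 : 1 ≤ M := by
      have h1 : (1 : ℝ) ≤ D := by exact_mod_cast hD1
      have h2 : (1 : ℝ) ≤ ((e + 1 : ℕ) + 1 : ℝ) := by
        have : (0 : ℝ) ≤ ((e + 1 : ℕ) : ℝ) := by positivity
        linarith
      rw [hM]
      nlinarith
    have hMe : 1 ≤ M / ε e := by
      rw [le_div_iff₀ (hε e (by omega))]; linarith [hε1 e (by omega)]
    have hR : ∀ l, l < e + 1 → 1 ≤ 2 * M ^ 2 / ε l := by
      intro l hl
      rw [le_div_iff₀ (hε l hl)]
      have := hε1 l hl
      nlinarith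
    have hKj : ∀ k : ℕ, 1 ≤ (h + 1) * (M / ε e) * ∏ l ∈ Ico k e, (2 * M ^ 2 / ε l) := by
      intro k
      have h1 : 1 ≤ ∏ l ∈ Ico k e, (2 * M ^ 2 / ε l) := by
        refine Finset.one_le_prod ?_
        intro l hl
        exact hR l (by have := (mem_Ico.1 hl).2; omega)
      have h2 : 1 ≤ (h + 1) * (M / ε e) := by nlinarith
      nlinarith
    have main : ∀ j k : ℕ, k + j = e →
        X.HasHomotopy k ((h + 1) * (M / ε e) * ∏ l ∈ Ico k e, (2 * M ^ 2 / ε l)) := by
      intro j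
      induction j with
      | zero =>
        intro k hk
        have : k = e := by omega
        subst this
        have := Cplx.hasHomotopy_top' (hε k (by omega)) hp hD hT (hX k (by omega))
        rw [Ico_self, prod_empty, mul_one]
        exact this
      | succ j ih =>
        intro k hk
        have h1 := ih (k + 1) (by omega)
        have hK1 := hKj (k + 1)
        have h2 := Cplx.hasHomotopy_step' (hε k (by omega)) (hε (k + 1) (by omega)) hp hD hT
          (by omega : k + 1 < e + 1) (hX k (by omega)) (hX (k + 1) (by omega))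
          (by linarith) h1
        refine h2.mono ?_
        rw [← hM]
        set K := (h + 1) * (M / ε e) * ∏ l ∈ Ico (k + 1) e, (2 * M ^ 2 / ε l) with hKdef
        have h3 : 1 ≤ M * K := by nlinarith
        have h4 : 0 ≤ M / ε k := div_nonneg (by linarith) (hε k (by omega)).le
        calc (1 + M * K) * (M / ε k) ≤ (2 * (M * K)) * (M / ε k) :=
              mul_le_mul_of_nonneg_right (by linarith) h4
          _ = (h + 1) * (M / ε e) * ∏ l ∈ Ico k e, (2 * M ^ 2 / ε l) := by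
              rw [prod_eq_prod_Ico_succ_bot (by omega : k < e), hKdef]; ring
    have h0 := main e 0 (by omega)
    have hK1 := hKj 0
    have h1 := Cplx.card_vertices_le' (hε 0 (by omega)) hp hD hT (hX 0 (by omega)) (by omega)
      (by linarith) h0
    rw [← hM] at h1
    set K := (h + 1) * (M / ε e) * ∏ l ∈ Ico 0 e, (2 * M ^ 2 / ε l) with hKdef
    have h3 : 1 ≤ M * K := by nlinarith
    have h5 : ((X.face 0).card : ℝ) ≤ (h + 1) * ∏ l ∈ range (e + 1), (2 * M ^ 2 / ε l) := by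
      calc ((X.face 0).card : ℝ) ≤ 1 + M * K := h1
        _ ≤ 2 * (M * K) := by linarith
        _ = (h + 1) * ∏ l ∈ range (e + 1), (2 * M ^ 2 / ε l) := by
            rw [hKdef, prod_range_succ, range_eq_Ico]; ring
    have hMeq : M = (D : ℝ) * ((e : ℝ) + 2) := by
      rw [hM]; push_cast; ring
    rw [← hMeq]
    have hεp : 0 < ∏ i ∈ range (e + 1), ε i :=
      prod_pos fun i hi => hε i (mem_range.1 hi)
    calc (∏ i ∈ range (e + 1), ε i) * ((X.face 0).card : ℝ)
        ≤ (∏ i ∈ range (e + 1), ε i) * ((h + 1) * ∏ l ∈ range (e + 1), (2 * M ^ 2 / ε l)) :=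
          mul_le_mul_of_nonneg_left h5 hεp.le
      _ = (2 * M ^ 2) ^ (e + 1) * (h + 1) := by
          rw [prod_div_distrib, prod_const, card_range]
          field_simp
  · have hno : (X.face 0).card = 0 := by
      rw [card_eq_zero, eq_empty_iff_forall_notMem]
      intro s hs
      obtain ⟨t, ht, _⟩ := hp s (Cplx.mem_face.1 hs).1
      exact hT (card_pos.2 ⟨t, ht⟩)
    rw [hno]
    simp only [Nat.cast_zero, mul_zero]
    positivity

lemma Cplx.ExpandsAt.mono {X : Cplx V} {d i : ℕ} {ε ε' : ℝ}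
    (hX : X.ExpandsAt d i ε) (h : ε' ≤ ε) : X.ExpandsAt d i ε' := by
  intro f
  exact (mul_le_mul_of_nonneg_right h (X.distB_nonneg d i f)).trans (hX f)

end Vale.Agent.Lib.P067
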