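import Vale.Agent.Lib.P067.Basic

/-!
# P067: the `d`-skeleton of a bounded degree `(d+1)`-dimensional coboundary expander
-/

namespace Vale.Agent.Lib.P067

open Finset

variable {V : Type} [DecidableEq V]

/-- the `d`-skeleton: the faces with at most `d + 1` vertices -/
def Cplx.skel (X : Cplx V) (d : ℕ) : Cplx V where
  faces := X.faces.filter (fun s => s.card ≤ d + 1)
  nonempty_of_mem := fun s hs => X.nonempty_of_mem s (mem_filter.1 hs).1
  down_closed := fun s hs t hts ht =>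
    mem_filter.2 ⟨X.down_closed s (mem_filter.1 hs).1 t hts ht,
      (card_le_card hts).trans (mem_filter.1 hs).2⟩

lemma Cplx.face_skel (X : Cplx V) {d i : ℕ} (hi : i ≤ d) : (X.skel d).face i = X.face i := by
  ext s
  rw [Cplx.mem_face, Cplx.mem_face]
  unfold Cplx.skel
  simp only [mem_filter]
  constructor
  · rintro ⟨⟨h1, -⟩, h3⟩
    exact ⟨h1, h3⟩
  · rintro ⟨h1, h3⟩
    exact ⟨⟨h1, by omega⟩, h3⟩

lemma Cplx.skel_pure {X : Cplx V} {d : ℕ} (hp : X.IsPure (d + 1)) : (X.skel d).IsPure d := by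
  intro s hs
  have hs' := mem_filter.1 hs
  obtain ⟨t, ht, hst⟩ := hp s hs'.1
  have ht' := Cplx.mem_face.1 ht
  obtain ⟨u, hsu, hut, hu⟩ := Finset.exists_subsuperset_card_eq hst hs'.2 (by omega : d + 1 ≤ t.card)
  refine ⟨u, ?_, hsu⟩
  rw [X.face_skel le_rfl, Cplx.mem_face]
  exact ⟨X.down_closed t ht'.1 u hut (card_pos.1 (by omega)), hu⟩

lemma Cplx.topDeg_skel_le {X : Cplx V} {d : ℕ} (hp : X.IsPure (d + 1)) (s : Finset V) :
    (X.skel d).topDeg d s ≤ X.topDeg (d + 1) s * (d + 2) := by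
  unfold Cplx.topDeg
  rw [X.face_skel le_rfl]
  have hsub : (X.face d).filter (fun u => s ⊆ u) ⊆
      ((X.face (d + 1)).filter (fun t => s ⊆ t)).biUnion fun t => t.powersetCard (d + 1) := by
    intro u hu
    rw [mem_filter, Cplx.mem_face] at hu
    obtain ⟨t, ht, hut⟩ := hp u hu.1.1
    rw [mem_biUnion]
    exact ⟨t, mem_filter.2 ⟨ht, hu.2.trans hut⟩, mem_powersetCard.2 ⟨hut, hu.1.2⟩⟩
  refine (card_le_card hsub).trans (card_biUnion_le_card_mul _ _ _ fun t ht => ?_)
  have ht' := (Cplx.mem_face.1 (mem_filter.1 ht).1).2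
  rw [card_powersetCard, ht']
  have : (d + 1 + 1).choose (d + 1) = d + 2 := by
    rw [Nat.choose_succ_self_right]
  omega

lemma Cplx.degree_skel_le {X : Cplx V} {d D : ℕ} (hp : X.IsPure (d + 1))
    (hD : X.degree (d + 1) ≤ D) : (X.skel d).degree d ≤ D * (d + 2) := by
  unfold Cplx.degree
  refine Finset.sup_le fun v hv => ?_
  rw [X.face_skel (Nat.zero_le d)] at hv
  refine (Cplx.topDeg_skel_le hp v).trans (Nat.mul_le_mul_right _ ?_)
  exact Cplx.topDeg_le hD (Cplx.mem_face.1 hv).1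

/-- transport of cochains between complexes with the same `i`-faces -/
def castC {X Y : Cplx V} {i : ℕ} (h : Y.face i = X.face i) (f : X.Cochain i) : Y.Cochain i :=
  fun s => f ⟨s.1, h ▸ s.2⟩

/-- the bijection between the `i`-faces -/
def faceEquiv {X Y : Cplx V} {i : ℕ} (h : Y.face i = X.face i) : Y.face i ≃ X.face i where
  toFun s := ⟨s.1, h ▸ s.2⟩
  invFun s := ⟨s.1, h.symm ▸ s.2⟩
  left_inv _ := rfl
  right_inv _ := rfl

lemma castC_castC {X Y : Cplx V} {i : ℕ} (h : Y.face i = X.face i) (g : Y.Cochain i) :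
    castC h (castC h.symm g) = g := rfl

lemma castC_sub {X Y : Cplx V} {i : ℕ} (h : Y.face i = X.face i) (f a : X.Cochain i) :
    castC h (f - a) = castC h f - castC h a := rfl

lemma wt_castC {X Y : Cplx V} {i : ℕ} (h : Y.face i = X.face i) (f : X.Cochain i) :
    wt (castC h f) = wt f := by
  unfold wt
  refine Finset.card_bij (fun s _ => faceEquiv h s) ?_ ?_ ?_
  · intro s hs
    rw [mem_filter] at hs ⊢
    exact ⟨mem_univ _, hs.2⟩
  · intro s _ t _ hst
    exact (faceEquiv h).injective hst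
  · intro s hs
    rw [mem_filter] at hs
    exact ⟨(faceEquiv h).symm s, mem_filter.2 ⟨mem_univ _, hs.2⟩, rfl⟩

lemma cobdry_castC {X Y : Cplx V} {i : ℕ} (h0 : Y.face i = X.face i)
    (h1 : Y.face (i + 1) = X.face (i + 1)) (f : X.Cochain i) :
    Y.cobdry i (castC h0 f) = castC h1 (X.cobdry i f) := by
  funext t
  rw [Cplx.cobdry_apply]
  unfold castC
  rw [Cplx.cobdry_apply]
  exact Fintype.sum_equiv (faceEquiv h0) _ _ fun s => rfl

lemma isCobdry_castC {X Y : Cplx V} {i : ℕ} (h : ∀ j ≤ i, Y.face j = X.face j)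
    (a : X.Cochain i) (ha : X.IsCobdry i a) : Y.IsCobdry i (castC (h i le_rfl) a) := by
  cases i with
  | zero =>
    obtain ⟨c, hc⟩ := ha
    exact ⟨c, fun v => hc _⟩
  | succ i =>
    obtain ⟨g, hg⟩ := ha
    refine ⟨castC (h i (Nat.le_succ i)) g, ?_⟩
    rw [cobdry_castC (h i (Nat.le_succ i)) (h (i + 1) le_rfl), hg]

lemma choose_ineq (d i : ℕ) :
    (d + 2).choose (i + 1) * (d + 1).choose (i + 2) ≤ (d + 2).choose (i + 2) * (d + 1).choose (i + 1) := by
  have hA := Nat.choose_succ_right_eq (d + 2) (i + 1)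
  have hB := Nat.choose_succ_right_eq (d + 1) (i + 1)
  refine Nat.le_of_mul_le_mul_right (c := i + 2) ?_ (Nat.succ_pos _)
  calc (d + 2).choose (i + 1) * (d + 1).choose (i + 2) * (i + 2)
      = (d + 2).choose (i + 1) * ((d + 1).choose (i + 1 + 1) * (i + 1 + 1)) := by ring
    _ = (d + 2).choose (i + 1) * ((d + 1).choose (i + 1) * (d + 1 - (i + 1))) := by rw [hB]
    _ ≤ (d + 2).choose (i + 1) * ((d + 1).choose (i + 1) * (d + 2 - (i + 1))) := by
        gcongr
        omega
    _ = ((d + 2).choose (i + 1) * (d + 2 - (i + 1))) * (d + 1).choose (i + 1) := by ring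
    _ = ((d + 2).choose (i + 1 + 1) * (i + 1 + 1)) * (d + 1).choose (i + 1) := by rw [hA]
    _ = (d + 2).choose (i + 2) * (d + 1).choose (i + 1) * (i + 2) := by ring

end Vale.Agent.Lib.P067
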