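import Vale.Agent.Lib.P067.Skel

/-!
# P067: skeleta of bounded degree coboundary expanders are coboundary expanders
-/

namespace Vale.Agent.Lib.P067

open Finset

variable {V : Type} [DecidableEq V]

lemma chain_ineq (ε dX dY N1 w1 w0 A M nX0 nX1 nY0 nY1 D D' : ℝ) (hε : 0 ≤ ε)
    (pX1 : 0 < nX1) (pY0 : 0 < nY0) (pX0 : 0 ≤ nX0) (pD : 0 ≤ D) (pD' : 0 ≤ D') (pA : 0 ≤ A)
    (h1 : ε * dX ≤ N1) (h2 : N1 * nX1 ≤ w1 * D) (h3 : w1 ≤ A * nY1) (h4 : w0 ≤ dX * nX0)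
    (h5 : dY ≤ M) (h6 : M * nY0 ≤ w0 * D') (h7 : nX0 * nY1 ≤ nX1 * nY0) :
    ε * dY ≤ A * (D * D') := by
  have e1 : dY * nY0 ≤ dX * nX0 * D' :=
    calc dY * nY0 ≤ M * nY0 := mul_le_mul_of_nonneg_right h5 pY0.le
      _ ≤ w0 * D' := h6
      _ ≤ dX * nX0 * D' := mul_le_mul_of_nonneg_right h4 pD'
  have e2 : ε * dX * nX1 ≤ A * nY1 * D :=
    calc ε * dX * nX1 ≤ N1 * nX1 := mul_le_mul_of_nonneg_right h1 pX1.le
      _ ≤ w1 * D := h2
      _ ≤ A * nY1 * D := mul_le_mul_of_nonneg_right h3 pD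
  have e3 : (ε * dY) * (nY0 * nX1) ≤ (A * (D * D')) * (nY0 * nX1) :=
    calc (ε * dY) * (nY0 * nX1) = (ε * nX1) * (dY * nY0) := by ring
      _ ≤ (ε * nX1) * (dX * nX0 * D') := mul_le_mul_of_nonneg_left e1 (mul_nonneg hε pX1.le)
      _ = (ε * dX * nX1) * (nX0 * D') := by ring
      _ ≤ (A * nY1 * D) * (nX0 * D') := mul_le_mul_of_nonneg_right e2 (mul_nonneg pX0 pD')
      _ = (A * D * D') * (nX0 * nY1) := by ring
      _ ≤ (A * D * D') * (nX1 * nY0) :=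
          mul_le_mul_of_nonneg_left h7 (mul_nonneg (mul_nonneg pA pD) pD')
      _ = (A * (D * D')) * (nY0 * nX1) := by ring
  exact le_of_mul_le_mul_right e3 (mul_pos pY0 pX1)

lemma Cplx.top_pos {X : Cplx V} {d : ℕ} (hne : X.faces.Nonempty) (hp : X.IsPure d) :
    0 < (X.face d).card := by
  obtain ⟨s, hs⟩ := hne
  obtain ⟨t, ht, -⟩ := hp s hs
  exact card_pos.2 ⟨t, ht⟩

lemma Cplx.skel_nonempty {X : Cplx V} (d : ℕ) (hne : X.faces.Nonempty) :
    (X.skel d).faces.Nonempty := by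
  obtain ⟨s, hs⟩ := hne
  obtain ⟨x, hx⟩ := X.nonempty_of_mem s hs
  refine ⟨{x}, mem_filter.2 ⟨X.down_closed s hs _ (singleton_subset_iff.2 hx)
    (singleton_nonempty x), ?_⟩⟩
  rw [card_singleton]
  omega

lemma nrm_ineq (X : Cplx V) (d i : ℕ) :
    X.nrm (d + 1) i * (X.skel d).nrm d (i + 1) ≤ X.nrm (d + 1) (i + 1) * (X.skel d).nrm d i := by
  unfold Cplx.nrm
  have h := choose_ineq d i
  have h' : (((d + 2).choose (i + 1) : ℕ) : ℝ) * (((d + 1).choose (i + 2) : ℕ) : ℝ)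
      ≤ (((d + 2).choose (i + 2) : ℕ) : ℝ) * (((d + 1).choose (i + 1) : ℕ) : ℝ) := by
    exact_mod_cast h
  have hN : (0 : ℝ) ≤ ((X.face (d + 1)).card : ℝ) * (((X.skel d).face d).card : ℝ) := by positivity
  calc (((d + 1 + 1).choose (i + 1) : ℕ) : ℝ) * ((X.face (d + 1)).card : ℝ)
        * ((((d + 1).choose (i + 1 + 1) : ℕ) : ℝ) * (((X.skel d).face d).card : ℝ))
      = ((((d + 2).choose (i + 1) : ℕ) : ℝ) * (((d + 1).choose (i + 2) : ℕ) : ℝ))
        * (((X.face (d + 1)).card : ℝ) * (((X.skel d).face d).card : ℝ)) := by ring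
    _ ≤ ((((d + 2).choose (i + 2) : ℕ) : ℝ) * (((d + 1).choose (i + 1) : ℕ) : ℝ))
        * (((X.face (d + 1)).card : ℝ) * (((X.skel d).face d).card : ℝ)) :=
        mul_le_mul_of_nonneg_right h' hN
    _ = (((d + 1 + 1).choose (i + 1 + 1) : ℕ) : ℝ) * ((X.face (d + 1)).card : ℝ)
        * ((((d + 1).choose (i + 1) : ℕ) : ℝ) * (((X.skel d).face d).card : ℝ)) := by ring

theorem Cplx.skel_expander {X : Cplx V} {d D : ℕ} {ε : ℝ} (hε : 0 < ε) (hne : X.faces.Nonempty)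
    (hp : X.IsPure (d + 1)) (hD : X.degree (d + 1) ≤ D)
    (hX : X.IsCoboundaryExpander (d + 1) ε) :
    (X.skel d).IsCoboundaryExpander d (ε / (((d : ℝ) + 2) * (D : ℝ) ^ 2)) := by
  intro i hi g
  have hface : ∀ j ≤ i, (X.skel d).face j = X.face j := fun j hj => X.face_skel (by omega)
  have h0 : (X.skel d).face i = X.face i := hface i le_rfl
  have h1 : (X.skel d).face (i + 1) = X.face (i + 1) := X.face_skel (by omega)
  have hpY := Cplx.skel_pure hp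
  have hDY := Cplx.degree_skel_le hp hD
  have hTX := Cplx.top_pos hne hp
  have hTY := Cplx.top_pos (Cplx.skel_nonempty d hne) hpY
  set f : X.Cochain i := castC h0.symm g with hf
  have hg : g = castC h0 f := rfl
  obtain ⟨a, ha, hda⟩ := X.exists_distB (d + 1) i f
  have F1 := hX i (by omega) f
  have F2 := Cplx.norm_le hD (X.cobdry i f)
  have F3 := Cplx.le_norm hpY (by omega : i + 1 ≤ d) hTY ((X.skel d).cobdry i g)
  have hw1 : wt ((X.skel d).cobdry i g) = wt (X.cobdry i f) := by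
    rw [hg, cobdry_castC h0 h1, wt_castC]
  rw [hw1] at F3
  have F4 := Cplx.le_norm hp (by omega : i ≤ d + 1) hTX (f - a)
  have F5 := Cplx.distB_le (X.skel d) d i g (castC h0 a) (isCobdry_castC hface a ha)
  have hsub : g - castC h0 a = castC h0 (f - a) := rfl
  rw [hsub] at F5
  have F6 := Cplx.norm_le hDY (castC h0 (f - a))
  rw [wt_castC] at F6
  have F7 := nrm_ineq X d i
  rw [← hda] at F4
  have key := chain_ineq ε (X.distB (d + 1) i f) ((X.skel d).distB d i g) _ _ _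
    ((X.skel d).norm d (i + 1) ((X.skel d).cobdry i g)) _ (X.nrm (d + 1) i) (X.nrm (d + 1) (i + 1))
    ((X.skel d).nrm d i) ((X.skel d).nrm d (i + 1)) (D : ℝ) ((D * (d + 2) : ℕ) : ℝ) hε.le
    (Cplx.nrm_pos (by omega) hTX) (Cplx.nrm_pos (by omega) hTY)
    (Cplx.nrm_pos (by omega) hTX).le (by positivity) (by positivity)
    (Cplx.norm_nonneg _ _ _ _) F1 F2 F3 F4 F5 F6 F7
  have hDpos : 0 < D := by
    obtain ⟨s, hs⟩ := hne
    exact lt_of_lt_of_le (Cplx.topDeg_pos hp hs) (Cplx.topDeg_le hD hs)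
  have hc : (0 : ℝ) < ((d : ℝ) + 2) * (D : ℝ) ^ 2 := by
    have : (0 : ℝ) < D := by exact_mod_cast hDpos
    positivity
  rw [div_mul_eq_mul_div, div_le_iff₀ hc]
  refine key.trans (le_of_eq ?_)
  push_cast
  ring

end Vale.Agent.Lib.P067
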